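import Vale.Agent.H14.P038.Common

/-! Seymour's second neighbourhood conjecture for biclique-free oriented graphs. -/

namespace Vale.Agent.H14.P038

open Finset
open Vale.Agent.H14.P038.Common

open Classical in
theorem count {V : Type*} [Fintype V] {A : V → V → Prop} (U T : Finset V) (s c : ℕ)
    (hc : ∀ X ⊆ T, X.card = s → (univ.filter fun w => ∀ x ∈ X, A x w).card ≤ c) :
    ∑ w ∈ U, ((T.filter fun x => A x w).card + 1 - s) ^ s ≤ T.card ^ s * c := by
  have h1 : ∀ w ∈ U, ((T.filter fun x => A x w).card + 1 - s) ^ s ≤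
      s.factorial * ((T.filter fun x => A x w).card.choose s) := by
    intro w _
    rw [← Nat.descFactorial_eq_factorial_mul_choose]
    exact Nat.pow_sub_le_descFactorial _ _
  have h2 : ∑ w ∈ U, ((T.filter fun x => A x w).card.choose s) ≤ T.card.choose s * c := by
    have e1 : ∀ w ∈ U, ((T.filter fun x => A x w).card.choose s) =
        ∑ X ∈ T.powersetCard s, if (∀ x ∈ X, A x w) then 1 else 0 := by
      intro w _
      rw [← card_filter, ← card_powersetCard]
      congr 1
      ext X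
      simp only [mem_powersetCard, mem_filter, subset_iff]
      constructor
      · rintro ⟨h, h'⟩
        exact ⟨⟨fun x hx => (h hx).1, h'⟩, fun x hx => (h hx).2⟩
      · rintro ⟨⟨h, h'⟩, h''⟩
        exact ⟨fun x hx => ⟨h hx, h'' x hx⟩, h'⟩
    rw [sum_congr rfl e1, sum_comm]
    have e2 : ∀ X ∈ T.powersetCard s,
        (∑ w ∈ U, if (∀ x ∈ X, A x w) then 1 else 0) ≤ c := by
      intro X hX
      rw [← card_filter]
      rw [mem_powersetCard] at hX
      refine le_trans (card_le_card ?_) (hc X hX.1 hX.2)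
      intro w hw
      simp only [mem_filter, mem_univ, true_and] at hw ⊢
      exact hw.2
    calc _ ≤ (T.powersetCard s).card • c := sum_le_card_nsmul _ _ _ e2
      _ = _ := by rw [card_powersetCard, smul_eq_mul]
  calc ∑ w ∈ U, ((T.filter fun x => A x w).card + 1 - s) ^ s
      ≤ ∑ w ∈ U, s.factorial * ((T.filter fun x => A x w).card.choose s) := sum_le_sum h1
    _ = s.factorial * ∑ w ∈ U, ((T.filter fun x => A x w).card.choose s) := by rw [mul_sum]
    _ ≤ s.factorial * (T.card.choose s * c) := Nat.mul_le_mul_left _ h2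
    _ = T.card.descFactorial s * c := by
        rw [Nat.descFactorial_eq_factorial_mul_choose, mul_assoc]
    _ ≤ T.card ^ s * c := Nat.mul_le_mul_right _ (Nat.descFactorial_le_pow _ _)

open Classical in
theorem double {V : Type*} [Fintype V] {A : V → V → Prop} (hA : IsOriented A) (v : V) :
    ∑ x ∈ N1 A v, (N1 A x).card =
      ∑ w ∈ N1 A v ∪ N2 A v, ((N1 A v).filter fun x => A x w).card := by
  have hN : ∀ x ∈ N1 A v, (N1 A x).card = ∑ w ∈ N1 A v ∪ N2 A v, if A x w then 1 else 0 := by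
    intro x hx
    rw [← card_filter]
    congr 1
    ext w
    simp only [mem_filter]
    constructor
    · intro hw
      have := sub hA v x hx hw
      refine ⟨?_, by simpa [N1] using hw⟩
      rcases mem_union.1 this with h | h
      · exact mem_union_left _ (mem_of_mem_erase h)
      · exact mem_union_right _ h
    · rintro ⟨_, hw⟩
      simpa [N1] using hw
  rw [sum_congr rfl hN, sum_comm]
  exact sum_congr rfl fun w _ => (card_filter _ _).symm

open Classical in
theorem biclique {V : Type*} [Fintype V] {A : V → V → Prop} (hA : IsOriented A) (v : V)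
    (hdeg : ∀ x ∈ N1 A v, (N1 A v).card ≤ (N1 A x).card) (k c : ℕ)
    (hc : ∀ X ⊆ N1 A v, X.card = k + 1 →
      (univ.filter fun w => ∀ x ∈ X, A x w).card ≤ c)
    (hd : 2 ^ k * c + 2 * (k + 1) ^ 2 < (N1 A v).card) :
    (N1 A v).card ≤ (N2 A v).card := by
  by_contra hcon
  push Not at hcon
  set U : Finset V := N1 A v ∪ N2 A v with hUdef
  have hU : U.card ≤ (N1 A v).card + (N2 A v).card := card_union_le _ _
  have hcount := count (A := A) U (N1 A v) (k + 1) c hc
  have hdouble := double hA v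
  rw [← hUdef] at hdouble
  have hS : (N1 A v).card * (N1 A v).card ≤ ∑ x ∈ N1 A v, (N1 A x).card := by
    rw [← smul_eq_mul]
    exact card_nsmul_le_sum _ _ _ hdeg
  set d := (N1 A v).card with hddef
  set g : V → ℕ := fun w => ((N1 A v).filter fun x => A x w).card + 1 - (k + 1) with hg
  have hg1 : d * d ≤ ∑ w ∈ U, g w + 2 * d * (k + 1) := by
    have : ∑ w ∈ U, ((N1 A v).filter fun x => A x w).card ≤ ∑ w ∈ U, (g w + (k + 1)) := by
      refine sum_le_sum fun w _ => ?_
      simp only [hg]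
      omega
    rw [sum_add_distrib, sum_const, smul_eq_mul] at this
    have hU2 : U.card * (k + 1) ≤ 2 * d * (k + 1) := Nat.mul_le_mul_right _ (by omega)
    omega
  have hdpos : (0 : ℝ) < d := by
    have : 0 < d := by omega
    exact_mod_cast this
  have hd' : (2 : ℝ) ^ k * c + 2 * ((k : ℝ) + 1) ^ 2 < d := by exact_mod_cast hd
  have hcount' : ∑ w ∈ U, ((g w : ℝ)) ^ (k + 1) ≤ (d : ℝ) ^ (k + 1) * c := by
    exact_mod_cast hcount
  have hg1' : (d : ℝ) * d - 2 * d * (k + 1) ≤ ∑ w ∈ U, (g w : ℝ) := by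
    have : (d : ℝ) * d ≤ ∑ w ∈ U, (g w : ℝ) + 2 * d * (k + 1) := by exact_mod_cast hg1
    linarith
  have hUr : (U.card : ℝ) ≤ 2 * d := by
    have : U.card ≤ 2 * d := by omega
    exact_mod_cast this
  have hpm : (∑ w ∈ U, (g w : ℝ)) ^ (k + 1) ≤
      (U.card : ℝ) ^ k * ∑ w ∈ U, ((g w : ℝ)) ^ (k + 1) := by
    have h := pow_sum_div_card_le_sum_pow (s := U) (f := fun w => (g w : ℝ))
      (fun w _ => Nat.cast_nonneg _) k
    by_cases hU0 : U.card = 0
    · have : U = ∅ := card_eq_zero.1 hU0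
      rw [this]; simp
    · have : (0 : ℝ) < (U.card : ℝ) ^ k := by positivity
      rw [div_le_iff₀ this] at h
      linarith
  have hk1 : (2 : ℝ) * (k + 1) ≤ d := by
    have h2k : (0 : ℝ) ≤ (2 : ℝ) ^ k * c := by positivity
    have hk0 : (0 : ℝ) ≤ k := Nat.cast_nonneg k
    nlinarith
  have hfin : ((d : ℝ) * (d - 2 * (k + 1))) ^ (k + 1) ≤
      (2 * d) ^ k * ((d : ℝ) ^ (k + 1) * c) := by
    calc ((d : ℝ) * (d - 2 * (k + 1))) ^ (k + 1)
        ≤ (∑ w ∈ U, (g w : ℝ)) ^ (k + 1) := by
          apply pow_le_pow_left₀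
          · exact mul_nonneg hdpos.le (by linarith)
          · calc (d : ℝ) * (d - 2 * (k + 1)) = (d : ℝ) * d - 2 * d * (k + 1) := by ring
              _ ≤ _ := hg1'
      _ ≤ (U.card : ℝ) ^ k * ∑ w ∈ U, ((g w : ℝ)) ^ (k + 1) := hpm
      _ ≤ (2 * d) ^ k * ((d : ℝ) ^ (k + 1) * c) := by
          apply mul_le_mul (pow_le_pow_left₀ (Nat.cast_nonneg _) hUr k) hcount'
          · exact sum_nonneg fun w _ => by positivity
          · positivity
  have hfin2 : ((d : ℝ) - 2 * (k + 1)) ^ (k + 1) ≤ 2 ^ k * d ^ k * c := by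
    have e1 : ((d : ℝ) * (d - 2 * (k + 1))) ^ (k + 1) =
        (d : ℝ) ^ (k + 1) * (d - 2 * (k + 1)) ^ (k + 1) := mul_pow _ _ _
    have e2 : (2 * (d : ℝ)) ^ k * ((d : ℝ) ^ (k + 1) * c) =
        (d : ℝ) ^ (k + 1) * (2 ^ k * d ^ k * c) := by rw [mul_pow]; ring
    rw [e1, e2] at hfin
    exact le_of_mul_le_mul_left hfin (by positivity)
  have hber : (d : ℝ) ^ k * (d - 2 * (k + 1) ^ 2) ≤ ((d : ℝ) - 2 * (k + 1)) ^ (k + 1) := by
    have ha : (-2 : ℝ) ≤ -(2 * (k + 1) / d) := by
      have : (2 : ℝ) * (k + 1) / d ≤ 1 := by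
        rw [div_le_one hdpos]; exact hk1
      linarith
    have h := one_add_mul_le_pow ha (k + 1)
    have h' := mul_le_mul_of_nonneg_left h (by positivity : (0 : ℝ) ≤ (d : ℝ) ^ (k + 1))
    calc (d : ℝ) ^ k * (d - 2 * (k + 1) ^ 2)
        = (d : ℝ) ^ (k + 1) * (1 + ((k + 1 : ℕ) : ℝ) * -(2 * (k + 1) / d)) := by
          push_cast
          field_simp
          try ring
      _ ≤ _ := h'
      _ = ((d : ℝ) - 2 * (k + 1)) ^ (k + 1) := by
          rw [← mul_pow]
          congr 1
          field_simp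
          try ring
  have hlast : (d : ℝ) - 2 * (k + 1) ^ 2 ≤ 2 ^ k * c := by
    have : (d : ℝ) ^ k * (d - 2 * (k + 1) ^ 2) ≤ (d : ℝ) ^ k * (2 ^ k * c) := by
      calc _ ≤ _ := hber
        _ ≤ _ := hfin2
        _ = _ := by ring
    exact le_of_mul_le_mul_left this (by positivity)
  linarith

end Vale.Agent.H14.P038
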