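import Mathlib

/-!
# Seymour's second neighbourhood conjecture and common out-neighbourhoods

A vertex `v` of out-degree `d` whose out-neighbours have out-degree at least `d` satisfies
`|N₁⁺(v)| ≤ |N₂⁺(v)|` as soon as some set of out-neighbours of `v` has few pairwise common
out-neighbours.  In particular Seymour's conjecture holds for every oriented graph in which any
two distinct vertices have at most `(δ⁺ - 1)/2` common out-neighbours.
-/

namespace Vale.Agent.H14.P038.Common

open Finset

/-- An oriented graph on `V`: `A u v` means that `u → v` is an arc; there are no loops and no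
pairs of opposite arcs. -/
def IsOriented {V : Type*} (A : V → V → Prop) : Prop := ∀ u v, A u v → ¬ A v u

open Classical in
/-- `N₁⁺(v) = {u : v → u}`. -/
noncomputable def N1 {V : Type*} [Fintype V] (A : V → V → Prop) (v : V) : Finset V :=
  univ.filter fun u => A v u

open Classical in
/-- `N₂⁺(v) = {w ∉ {v} ∪ N₁⁺(v) : v → u → w for some u}`. -/
noncomputable def N2 {V : Type*} [Fintype V] (A : V → V → Prop) (v : V) : Finset V :=
  univ.filter fun w => w ≠ v ∧ ¬ A v w ∧ ∃ u, A v u ∧ A u w

open Classical in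
/-- The number of common out-neighbours of `x` and `y`. -/
noncomputable def codeg {V : Type*} [Fintype V] (A : V → V → Prop) (x y : V) : ℕ :=
  (univ.filter fun w => A x w ∧ A y w).card

/-- `v` has minimum out-degree. -/
def IsMinOut {V : Type*} [Fintype V] (A : V → V → Prop) (v : V) : Prop :=
  ∀ u, (N1 A v).card ≤ (N1 A u).card

open Classical in
/-- The basic inequality (Cauchy–Schwarz). -/
theorem key {V : Type*} [Fintype V] {A : V → V → Prop} (hA : IsOriented A) (v : V)
    (T : Finset V) (hT : T ⊆ N1 A v) :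
    (∑ x ∈ T, (N1 A x).card) ^ 2 ≤
      ((N1 A v).card + (N2 A v).card) *
        (∑ x ∈ T, (N1 A x).card + ∑ x ∈ T, ∑ y ∈ T.erase x, codeg A x y) := by
  set U : Finset V := N1 A v ∪ N2 A v with hUdef
  have hdisj : Disjoint (N1 A v) (N2 A v) := by
    rw [Finset.disjoint_left]
    intro w h1 h2
    simp only [N1, N2, mem_filter, mem_univ, true_and] at h1 h2
    exact h2.2.1 h1
  have hU : U.card = (N1 A v).card + (N2 A v).card := card_union_of_disjoint hdisj
  have hsub : ∀ x ∈ T, N1 A x ⊆ U := by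
    intro x hx w hw
    have hvx : A v x := by
      have := hT hx
      simpa [N1] using this
    have hxw : A x w := by simpa [N1] using hw
    by_cases hvw : A v w
    · exact mem_union_left _ (by simpa [N1] using hvw)
    · refine mem_union_right _ ?_
      simp only [N2, mem_filter, mem_univ, true_and]
      refine ⟨?_, hvw, x, hvx, hxw⟩
      rintro rfl
      exact hA _ _ hvx hxw
  have hN : ∀ x ∈ T, (N1 A x).card = ∑ w ∈ U, if A x w then 1 else 0 := by
    intro x hx
    rw [← card_filter]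
    congr 1
    ext w
    simp only [mem_filter]
    constructor
    · intro hw
      exact ⟨hsub x hx hw, by simpa [N1] using hw⟩
    · rintro ⟨_, hw⟩
      simpa [N1] using hw
  have hcd : ∀ x ∈ T, ∀ y, codeg A x y =
      ∑ w ∈ U, (if A x w then 1 else 0) * (if A y w then 1 else 0) := by
    intro x hx y
    have : ∀ w, (if A x w then 1 else 0) * (if A y w then 1 else 0) =
        if (A x w ∧ A y w) then 1 else 0 := by
      intro w
      by_cases h1 : A x w <;> by_cases h2 : A y w <;> simp [h1, h2]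
    simp only [this]
    rw [← card_filter, codeg]
    congr 1
    ext w
    simp only [mem_filter, mem_univ, true_and]
    constructor
    · rintro ⟨h1, h2⟩
      exact ⟨hsub x hx (by simpa [N1] using h1), h1, h2⟩
    · rintro ⟨_, h⟩
      exact h
  have h1 : ∑ x ∈ T, (N1 A x).card = ∑ w ∈ U, ∑ x ∈ T, (if A x w then 1 else 0) := by
    rw [sum_comm]
    exact sum_congr rfl hN
  have h2 : ∑ w ∈ U, (∑ x ∈ T, (if A x w then 1 else 0)) ^ 2 =
      ∑ x ∈ T, ∑ y ∈ T, codeg A x y := by
    have e1 : ∀ w ∈ U, (∑ x ∈ T, (if A x w then 1 else 0)) ^ 2 =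
        ∑ x ∈ T, ∑ y ∈ T, (if A x w then 1 else 0) * (if A y w then 1 else 0) := by
      intro w _
      rw [sq, sum_mul_sum]
    rw [sum_congr rfl e1, sum_comm]
    refine sum_congr rfl fun x hx => ?_
    rw [sum_comm]
    exact sum_congr rfl fun y _ => (hcd x hx y).symm
  have h3 : ∑ x ∈ T, ∑ y ∈ T, codeg A x y =
      ∑ x ∈ T, (N1 A x).card + ∑ x ∈ T, ∑ y ∈ T.erase x, codeg A x y := by
    rw [← sum_add_distrib]
    refine sum_congr rfl fun x hx => ?_
    rw [← add_sum_erase T _ hx]
    congr 1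
    simp [codeg, N1]
  calc (∑ x ∈ T, (N1 A x).card) ^ 2
      = (∑ w ∈ U, ∑ x ∈ T, (if A x w then 1 else 0)) ^ 2 := by rw [h1]
    _ ≤ U.card * ∑ w ∈ U, (∑ x ∈ T, (if A x w then 1 else 0)) ^ 2 :=
        sq_sum_le_card_mul_sum_sq
    _ = _ := by rw [h2, h3, hU]

open Classical in
/-- The local criterion. -/
theorem criterion {V : Type*} [Fintype V] {A : V → V → Prop} (hA : IsOriented A) (v : V)
    (T : Finset V) (hT : T ⊆ N1 A v) (C : ℕ)
    (hdeg : ∀ x ∈ T, (N1 A v).card ≤ (N1 A x).card)
    (hC : (∑ x ∈ T, ∑ y ∈ T.erase x, codeg A x y) ≤ C)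
    (hlt : (2 * (N1 A v).card - 1) * (T.card * (N1 A v).card + C) <
      (T.card * (N1 A v).card) ^ 2) :
    (N1 A v).card ≤ (N2 A v).card := by
  have hk := key hA v T hT
  have hS : T.card * (N1 A v).card ≤ ∑ x ∈ T, (N1 A x).card := by
    rw [← smul_eq_mul]
    exact card_nsmul_le_sum _ _ _ hdeg
  by_contra hcon
  push Not at hcon
  set d := (N1 A v).card
  set n := (N2 A v).card
  set S := ∑ x ∈ T, (N1 A x).card
  set K := ∑ x ∈ T, ∑ y ∈ T.erase x, codeg A x y
  set m := T.card
  have hd : 1 ≤ d := by omega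
  obtain ⟨q, hq⟩ : ∃ q, q = 2 * d - 1 := ⟨_, rfl⟩
  rw [← hq] at hlt
  have hdn : d + n ≤ q := by omega
  have h1 : S ^ 2 ≤ q * (S + C) :=
    le_trans hk (Nat.mul_le_mul hdn (by omega))
  have hmd : 0 < m * d := by
    rcases Nat.eq_zero_or_pos (m * d) with h | h
    · rw [h] at hlt
      simp at hlt
    · exact h
  have h2 : q < m * d := by
    by_contra h
    push Not at h
    have : (m * d) ^ 2 ≤ q * (m * d + C) := by
      rw [sq]
      exact Nat.mul_le_mul h (by omega)
    omega
  zify at h1 hlt h2 hS hmd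
  nlinarith [mul_nonneg (sub_nonneg.2 hS) (by linarith : (0 : ℤ) ≤ (S : ℤ) + m * d - q)]

open Classical in
theorem sub {V : Type*} [Fintype V] {A : V → V → Prop} (hA : IsOriented A) (v x : V)
    (hx : x ∈ N1 A v) : N1 A x ⊆ (N1 A v).erase x ∪ N2 A v := by
  intro w hw
  have hvx : A v x := by simpa [N1] using hx
  have hxw : A x w := by simpa [N1] using hw
  by_cases hvw : A v w
  · refine mem_union_left _ (mem_erase.2 ⟨?_, by simpa [N1] using hvw⟩)
    rintro rfl
    exact hA _ _ hxw hxw
  · refine mem_union_right _ ?_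
    simp only [N2, mem_filter, mem_univ, true_and]
    refine ⟨?_, hvw, x, hvx, hxw⟩
    rintro rfl
    exact hA _ _ hvx hxw

open Classical in
theorem sub_card {V : Type*} [Fintype V] {A : V → V → Prop} (hA : IsOriented A) (v x : V)
    (hx : x ∈ N1 A v) : (N1 A x).card + 1 ≤ (N1 A v).card + (N2 A v).card := by
  have h := card_le_card (sub hA v x hx)
  have h2 := card_union_le ((N1 A v).erase x) (N2 A v)
  have h3 := card_erase_add_one hx
  omega

open Classical in
theorem small {V : Type*} [Fintype V] {A : V → V → Prop} (hA : IsOriented A) (v : V)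
    (hdeg : ∀ x ∈ N1 A v, (N1 A v).card ≤ (N1 A x).card) (hd : (N1 A v).card ≤ 2) :
    (N1 A v).card ≤ (N2 A v).card := by
  by_contra hcon
  push Not at hcon
  obtain ⟨x, hx⟩ : (N1 A v).Nonempty := by
    rw [← card_pos]; omega
  have h1 := sub_card hA v x hx
  have h2 := hdeg x hx
  have hd2 : (N1 A v).card = 2 := by omega
  have hn : (N2 A v).card = 1 := by omega
  obtain ⟨a, b, hab, hN⟩ := card_eq_two.1 hd2
  have ha : a ∈ N1 A v := by rw [hN]; simp
  have hb : b ∈ N1 A v := by rw [hN]; simp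
  have full : ∀ z ∈ N1 A v, N1 A z = (N1 A v).erase z ∪ N2 A v := by
    intro z hz
    apply eq_of_subset_of_card_le (sub hA v z hz)
    have h3 := card_union_le ((N1 A v).erase z) (N2 A v)
    have h4 := card_erase_add_one hz
    have h5 := hdeg z hz
    omega
  have hA1 : A a b := by
    have : b ∈ N1 A a := by
      rw [full a ha]
      exact mem_union_left _ (mem_erase.2 ⟨hab.symm, hb⟩)
    simpa [N1] using this
  have hA2 : A b a := by
    have : a ∈ N1 A b := by
      rw [full b hb]
      exact mem_union_left _ (mem_erase.2 ⟨hab, ha⟩)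
    simpa [N1] using this
  exact hA _ _ hA1 hA2

open Classical in
theorem average {V : Type*} [Fintype V] {A : V → V → Prop} (hA : IsOriented A) (v : V)
    (hdeg : ∀ x ∈ N1 A v, (N1 A v).card ≤ (N1 A x).card)
    (hC : 2 * (∑ x ∈ N1 A v, ∑ y ∈ (N1 A v).erase x, codeg A x y) ≤
      (N1 A v).card * ((N1 A v).card - 1) ^ 2) :
    (N1 A v).card ≤ (N2 A v).card := by
  by_cases hd : (N1 A v).card ≤ 2
  · exact small hA v hdeg hd
  push Not at hd
  apply criterion hA v (N1 A v) (subset_refl _) _ hdeg le_rfl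
  set C := ∑ x ∈ N1 A v, ∑ y ∈ (N1 A v).erase x, codeg A x y
  obtain ⟨e, he⟩ : ∃ e, (N1 A v).card = e + 3 := ⟨(N1 A v).card - 3, by omega⟩
  rw [he] at hC ⊢
  have e1 : 2 * (e + 3) - 1 = 2 * e + 5 := by omega
  have e2 : e + 3 - 1 = e + 2 := by omega
  rw [e1]
  rw [e2] at hC
  have h1 : (2 * e + 5) * (2 * C) ≤ (2 * e + 5) * ((e + 3) * (e + 2) ^ 2) :=
    Nat.mul_le_mul_left _ hC
  nlinarith [Nat.zero_le e, Nat.zero_le (e ^ 2), Nat.zero_le (e ^ 3), Nat.zero_le (e ^ 4)]

open Classical in
theorem pairwise {V : Type*} [Fintype V] {A : V → V → Prop} (hA : IsOriented A) (v : V)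
    (hdeg : ∀ x ∈ N1 A v, (N1 A v).card ≤ (N1 A x).card)
    (hc : ∀ x ∈ N1 A v, ∀ y ∈ N1 A v, x ≠ y → 2 * codeg A x y + 1 ≤ (N1 A v).card) :
    (N1 A v).card ≤ (N2 A v).card := by
  apply average hA v hdeg
  rw [mul_sum]
  have h1 : ∀ x ∈ N1 A v, 2 * ∑ y ∈ (N1 A v).erase x, codeg A x y ≤
      ((N1 A v).card - 1) ^ 2 := by
    intro x hx
    rw [mul_sum, sq]
    have h2 : ∀ y ∈ (N1 A v).erase x, 2 * codeg A x y ≤ (N1 A v).card - 1 := by
      intro y hy
      have := hc x hx y (mem_of_mem_erase hy) (ne_of_mem_erase hy).symm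
      omega
    calc ∑ y ∈ (N1 A v).erase x, 2 * codeg A x y
        ≤ ((N1 A v).erase x).card * ((N1 A v).card - 1) := by
          rw [← smul_eq_mul]
          exact sum_le_card_nsmul _ _ _ h2
      _ = _ := by rw [card_erase_of_mem hx]
  rw [← smul_eq_mul (N1 A v).card]
  exact sum_le_card_nsmul _ _ _ h1

open Classical in
theorem subsets {V : Type*} [Fintype V] {A : V → V → Prop} (hA : IsOriented A) (v : V)
    (hdeg : ∀ x ∈ N1 A v, (N1 A v).card ≤ (N1 A x).card) (T : Finset V) (hT : T ⊆ N1 A v)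
    (hT2 : 2 ≤ T.card)
    (hc : ∀ x ∈ T, ∀ y ∈ T, x ≠ y →
      2 * (T.card - 1) * codeg A x y ≤ (T.card - 2) * (N1 A v).card) :
    (N1 A v).card ≤ (N2 A v).card := by
  apply criterion hA v T hT _ (fun x hx => hdeg x (hT hx)) le_rfl
  set C := ∑ x ∈ T, ∑ y ∈ T.erase x, codeg A x y with hCdef
  have hd : 1 ≤ (N1 A v).card := le_trans (by omega) (card_le_card hT)
  have hC : 2 * C ≤ T.card * ((T.card - 2) * (N1 A v).card) := by
    rw [hCdef, mul_sum, ← smul_eq_mul T.card]
    apply sum_le_card_nsmul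
    intro x hx
    rw [mul_sum]
    have h2 : ∀ y ∈ T.erase x, (T.card - 1) * (2 * codeg A x y) ≤
        (T.card - 2) * (N1 A v).card := by
      intro y hy
      have := hc x hx y (mem_of_mem_erase hy) (ne_of_mem_erase hy).symm
      calc (T.card - 1) * (2 * codeg A x y) = 2 * (T.card - 1) * codeg A x y := by ring
        _ ≤ _ := this
    have h3 : (T.card - 1) * ∑ y ∈ T.erase x, 2 * codeg A x y ≤
        (T.card - 1) * ((T.card - 2) * (N1 A v).card) := by
      rw [mul_sum]
      calc _ ≤ (T.erase x).card • ((T.card - 2) * (N1 A v).card) :=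
            sum_le_card_nsmul _ _ _ h2
        _ = _ := by rw [card_erase_of_mem hx, smul_eq_mul]
    exact Nat.le_of_mul_le_mul_left h3 (by omega)
  obtain ⟨m, hm⟩ : ∃ m, T.card = m + 2 := ⟨T.card - 2, by omega⟩
  obtain ⟨d, hd'⟩ : ∃ d, (N1 A v).card = d + 1 := ⟨(N1 A v).card - 1, by omega⟩
  rw [hm, hd'] at hC ⊢
  have e1 : 2 * (d + 1) - 1 = 2 * d + 1 := by omega
  have e2 : m + 2 - 2 = m := by omega
  rw [e1]
  rw [e2] at hC
  have h1 : (2 * d + 1) * (2 * C) ≤ (2 * d + 1) * ((m + 2) * (m * (d + 1))) :=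
    Nat.mul_le_mul_left _ hC
  nlinarith [Nat.zero_le (m * d), Nat.zero_le (m ^ 2 * d), Nat.zero_le m,
    Nat.zero_le d, Nat.zero_le (m ^ 2)]

open Classical in
/-- **Seymour's second neighbourhood conjecture for oriented graphs with small common
out-neighbourhoods.**  Let `A` be an oriented graph on a finite set `V`.

1. If any two distinct vertices have at most one common out-neighbour, every vertex `v` of minimum
   out-degree has `|N₁⁺(v)| ≤ |N₂⁺(v)|`.
2. The same holds if any two distinct vertices have at most `(δ⁺ - 1) / 2` common out-neighbours.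
3. For a given vertex `v` whose out-neighbours all have out-degree at least `d = |N₁⁺(v)|`, it is
   enough that the average number of common out-neighbours of two out-neighbours of `v` is at most
   `(d - 1) / 2`.
4. For such a `v`, it is also enough that some `m ≥ 2` out-neighbours of `v` have pairwise at most
   `(m - 2) d / (2 (m - 1))` common out-neighbours.
5. For every vertex `v` and every set `T` of out-neighbours of `v`, with
   `S = ∑_{x ∈ T} |N₁⁺(x)|` and `C` the sum over ordered pairs of distinct `x, y ∈ T` of the number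
   of common out-neighbours, `S² ≤ (|N₁⁺(v)| + |N₂⁺(v)|) (S + C)`. -/
theorem commonOut_result {V : Type*} [Fintype V] (A : V → V → Prop) (hA : IsOriented A) :
    ((∀ x y, x ≠ y → codeg A x y ≤ 1) →
      ∀ v, IsMinOut A v → (N1 A v).card ≤ (N2 A v).card) ∧
    (∀ δ : ℕ, (∀ v, δ ≤ (N1 A v).card) → (∀ x y, x ≠ y → 2 * codeg A x y + 1 ≤ δ) →
      ∀ v, IsMinOut A v → (N1 A v).card ≤ (N2 A v).card) ∧
    (∀ v, (∀ x ∈ N1 A v, (N1 A v).card ≤ (N1 A x).card) →
      2 * (∑ x ∈ N1 A v, ∑ y ∈ (N1 A v).erase x, codeg A x y) ≤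
        (N1 A v).card * ((N1 A v).card - 1) ^ 2 →
      (N1 A v).card ≤ (N2 A v).card) ∧
    (∀ v, (∀ x ∈ N1 A v, (N1 A v).card ≤ (N1 A x).card) → ∀ T ⊆ N1 A v, 2 ≤ T.card →
      (∀ x ∈ T, ∀ y ∈ T, x ≠ y →
        2 * (T.card - 1) * codeg A x y ≤ (T.card - 2) * (N1 A v).card) →
      (N1 A v).card ≤ (N2 A v).card) ∧
    (∀ v, ∀ T ⊆ N1 A v,
      (∑ x ∈ T, (N1 A x).card) ^ 2 ≤
        ((N1 A v).card + (N2 A v).card) *
          (∑ x ∈ T, (N1 A x).card + ∑ x ∈ T, ∑ y ∈ T.erase x, codeg A x y)) := by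
  refine ⟨fun hc v hv => ?_, fun δ hδ hc v hv => ?_, fun v hdeg hC => average hA v hdeg hC,
    fun v hdeg T hT h2 hc => subsets hA v hdeg T hT h2 hc, fun v T hT => key hA v T hT⟩
  · by_cases hd : (N1 A v).card ≤ 2
    · exact small hA v (fun x _ => hv x) hd
    · refine pairwise hA v (fun x _ => hv x) fun x _ y _ hxy => ?_
      have := hc x y hxy
      omega
  · refine pairwise hA v (fun x _ => hv x) fun x _ y _ hxy => ?_
    have := hc x y hxy
    have := hδ v
    omega

end Vale.Agent.H14.P038.Common
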